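import Vale.Agent.P162.Main3

namespace Vale.Agent.Results.P162.LogMixing
open Vale.Agent.P162

theorem result : ∃ c C : ℝ, 0 < c ∧ 0 < C ∧ ∀ d : ℕ, 1 ≤ d →
    c * Real.log (2 ^ d) ≤ tmix (2 ^ d) ∧ (tmix (2 ^ d) : ℝ) ≤ C * Real.log (2 ^ d) := by
  obtain ⟨C, hC⟩ := mix_all
  have hl : 0 < Real.log 2 := Real.log_pos (by norm_num)
  refine ⟨1 / (2 * Real.log 2), (C + 1) / Real.log 2, by positivity, by positivity,
    fun d hd => ?_⟩
  obtain ⟨R, hR, h⟩ := hC d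
  obtain ⟨e, rfl⟩ := Nat.exists_eq_add_of_le' hd
  have h1 : tmix (2 ^ (e + 1)) ≤ (e + 1) * (C + 1) :=
    (Nat.sInf_le h).trans (Nat.mul_le_mul_left _ (by omega))
  have h2 : e + 1 ≤ 2 * tmix (2 ^ (e + 1)) := lower e _
    (Nat.sInf_mem (s := {t : ℕ | tvUnif (cpow (thorp (2 ^ (e + 1))) t) ≤ 1 / 4}) ⟨_, h⟩)
  have h3 : (tmix (2 ^ (e + 1)) : ℝ) ≤ (e + 1) * (C + 1) := by exact_mod_cast h1
  have h4 : (e + 1 : ℝ) ≤ 2 * tmix (2 ^ (e + 1)) := by exact_mod_cast h2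
  rw [Real.log_pow]
  push_cast
  constructor
  · have : 1 / (2 * Real.log 2) * ((e + 1) * Real.log 2) = (e + 1) / 2 := by field_simp
    linarith
  · have : (C + 1) / Real.log 2 * ((e + 1) * Real.log 2) = (e + 1) * (C + 1) := by field_simp
    linarith

end Vale.Agent.Results.P162.LogMixing
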